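import Mathlib
import Crest.Prelude.Def_QuadricHamiltonian

/-! Algebra for the Hamiltonian on the quadric threefold. -/

set_option autoImplicit false

open scoped ComplexConjugate ContDiff
open Crest.GeometryTopology.Quadric Complex

namespace Crest.Agent.R205

/-- Complex five-space. -/
abbrev E5 : Type := Fin 5 → ℂ

/-- The Hermitian matrix of the perturbing Hamiltonian. -/
noncomputable def Mv (z : E5) : E5 :=
  ![-3 * z 0 - I * (z 1 - z 2), z 1 + I * (z 0 + z 3), z 2 - I * (z 0 + z 3),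
    z 3 - I * (z 1 - z 2), z 4]

/-- The lifted Hamiltonian vector field. -/
noncomputable def Xv (z : E5) : E5 := fun j => -I * (Mv z j + 4 * z 0 ^ 2 * conj (z j))

/-- Simultaneous rotation of two coordinate planes. -/
noncomputable def Gr (a b : ℝ) (z : E5) : E5 :=
  ![a * z 0 - b * z 1, b * z 0 + a * z 1, a * z 2 - b * z 3, b * z 2 + a * z 3, z 4]

/-- The generator of the rotation. -/
noncomputable def Jv (z : E5) : E5 := ![-z 1, z 0, -z 3, z 2, 0]

/-- The Hamiltonian of the rotation. -/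
noncomputable def Q1 (x : E5) : ℝ := (herm x (I • Jv x)).re

/-- The perturbing Hamiltonian. -/
noncomputable def Q2 (x : E5) : ℝ := (herm x (Mv x)).re

theorem Q1_line (x w : E5) (s : ℝ) :
    Q1 (x + s • w) = Q1 x + (2 * (herm (Jv x) w).im) * s + Q1 w * s ^ 2 := by
  simp [Q1, herm, Jv, Fin.sum_univ_five]
  ring

theorem Q2_line (x w : E5) (s : ℝ) :
    Q2 (x + s • w) = Q2 x + (2 * (herm (Mv x) w).re) * s + Q2 w * s ^ 2 := by
  simp [Q2, herm, Mv, Fin.sum_univ_five]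
  ring

theorem Q1_smul (x : E5) (c : ℂ) (hc : ‖c‖ = 1) : Q1 (c • x) = Q1 x := by
  have h : c.re ^ 2 + c.im ^ 2 = 1 := by
    rw [← Complex.normSq_eq_norm_sq c |>.trans (by rw [hc]; norm_num : ‖c‖ ^ 2 = 1),
      Complex.normSq_apply]; ring
  have : Q1 (c • x) = (c.re ^ 2 + c.im ^ 2) * Q1 x := by
    simp [Q1, herm, Jv, Fin.sum_univ_five]
    ring
  rw [this, h, one_mul]

theorem Q2_smul (x : E5) (c : ℂ) (hc : ‖c‖ = 1) : Q2 (c • x) = Q2 x := by
  have h : c.re ^ 2 + c.im ^ 2 = 1 := by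
    rw [← Complex.normSq_eq_norm_sq c |>.trans (by rw [hc]; norm_num : ‖c‖ ^ 2 = 1),
      Complex.normSq_apply]; ring
  have : Q2 (c • x) = (c.re ^ 2 + c.im ^ 2) * Q2 x := by
    simp [Q2, herm, Mv, Fin.sum_univ_five]
    ring
  rw [this, h, one_mul]

theorem Gr_Gr (a b : ℝ) (h : a ^ 2 + b ^ 2 = 1) (z : E5) : Gr a (-b) (Gr a b z) = z := by
  have h' : (a : ℂ) ^ 2 + (b : ℂ) ^ 2 = 1 := by exact_mod_cast h
  ext j
  fin_cases j <;> simp [Gr]
  · linear_combination z 0 * h'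
  · linear_combination z 1 * h'
  · linear_combination z 2 * h'
  · linear_combination z 3 * h'

theorem Gr_line (a b : ℝ) (x w : E5) (s : ℝ) : Gr a b (x + s • w) = Gr a b x + s • Gr a b w := by
  ext j
  fin_cases j <;> simp [Gr] <;> ring

theorem Gr_smul (a b : ℝ) (x : E5) (c : ℂ) : Gr a b (c • x) = c • Gr a b x := by
  ext j
  fin_cases j <;> simp [Gr] <;> ring

theorem herm_Gr (a b : ℝ) (u w : E5) : herm (Gr a b u) w = herm u (Gr a (-b) w) := by
  simp [herm, Gr, Fin.sum_univ_five]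
  ring

theorem bil_Gr (a b : ℝ) (u w : E5) :
    ∑ j, Gr a b u j * w j = ∑ j, u j * Gr a (-b) w j := by
  simp [Gr, Fin.sum_univ_five]
  ring

theorem Gr_mem (a b : ℝ) (h : a ^ 2 + b ^ 2 = 1) (z : E5) (hz : z ∈ unitCone) :
    Gr a b z ∈ unitCone := by
  refine ⟨?_, ?_⟩
  · rw [herm_Gr, Gr_Gr a b h]; exact hz.1
  · have := bil_Gr a b z (Gr a b z)
    rw [Gr_Gr a b h] at this
    simp only [sq]
    rw [this]
    simpa only [sq] using hz.2

theorem Gr_one (z : E5) : Gr 1 0 z = z := by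
  ext j
  fin_cases j <;> simp [Gr]

theorem herm_Xv (z w : E5) (h : ∑ j, z j * w j = 0) :
    (herm (Xv z) w).im = (herm (Mv z) w).re := by
  have : herm (Xv z) w = I * herm (Mv z) w + I * 4 * conj (z 0) ^ 2 * ∑ j, z j * w j := by
    simp [herm, Xv, Fin.sum_univ_five, map_ofNat]
    ring
  rw [this, h]
  simp

theorem conj_mul_of_norm {c : ℂ} (hc : ‖c‖ = 1) : conj c * c = 1 := by
  rw [Complex.conj_mul', hc]; simp

theorem Xv_smul (z : E5) (c : ℂ) (hc : ‖c‖ = 1) : Xv (c • z) = c • Xv z := by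
  have h := conj_mul_of_norm hc
  ext j
  fin_cases j <;> simp [Xv, Mv]
  · linear_combination ((I * 4 * c * z 0 ^ 2 * conj (z 0))) * h
  · linear_combination ((I * 4 * c * z 0 ^ 2 * conj (z 1))) * h
  · linear_combination ((I * 4 * c * z 0 ^ 2 * conj (z 2))) * h
  · linear_combination ((I * 4 * c * z 0 ^ 2 * conj (z 3))) * h
  · linear_combination ((I * 4 * c * z 0 ^ 2 * conj (z 4))) * h

theorem Xv_g (z : E5) : Xv (Gr (-1) 0 z) = Gr (-1) 0 (Xv z) := by
  ext j
  fin_cases j <;> simp [Xv, Mv, Gr] <;> ring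

theorem smul_mem_cone (z : E5) (hz : z ∈ unitCone) (c : ℂ) (hc : ‖c‖ = 1) : c • z ∈ unitCone := by
  have h := conj_mul_of_norm hc
  obtain ⟨h1, h2⟩ := hz
  simp only [herm, Fin.sum_univ_five] at h1 h2
  refine ⟨?_, ?_⟩
  · simp only [herm, Fin.sum_univ_five, Pi.smul_apply, smul_eq_mul, map_mul]
    linear_combination (conj c * c) * h1 + h
  · simp only [Fin.sum_univ_five, Pi.smul_apply, smul_eq_mul]
    linear_combination c ^ 2 * h2

theorem norm_eq_one_of_smul_mem (z : E5) (hz : z ∈ unitCone) (c : ℂ) (hc : c • z ∈ unitCone) :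
    ‖c‖ = 1 := by
  have h1 := hz.1
  have h2 := hc.1
  simp only [herm, Fin.sum_univ_five, Pi.smul_apply, smul_eq_mul, map_mul] at h1 h2
  have h : conj c * c = 1 := by linear_combination h2 - (conj c * c) * h1
  rw [Complex.conj_mul'] at h
  have h3 : ‖c‖ ^ 2 = 1 := by exact_mod_cast h
  nlinarith [norm_nonneg c]

theorem norm_le_of_mem (z : E5) (hz : z ∈ unitCone) : ‖z‖ ≤ 1 := by
  have h1 := hz.1
  simp only [herm, Complex.conj_mul'] at h1
  have h2 : ∑ j, ‖z j‖ ^ 2 = 1 := by exact_mod_cast h1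
  refine (pi_norm_le_iff_of_nonneg zero_le_one).2 fun j => ?_
  have : ‖z j‖ ^ 2 ≤ 1 := h2 ▸ Finset.single_le_sum (f := fun j => ‖z j‖ ^ 2)
    (fun _ _ => by positivity) (Finset.mem_univ j)
  nlinarith [norm_nonneg (z j)]

theorem bil_Xv (z : E5) :
    ∑ j, z j * Xv z j = -I * ((∑ j, z j ^ 2) + 4 * z 0 ^ 2 * (herm z z - 1)) := by
  simp [herm, Xv, Mv, Fin.sum_univ_five]
  ring

theorem herm_Xv_self (z : E5) :
    herm (Xv z) z + herm z (Xv z) =
      4 * I * conj (z 0) ^ 2 * (∑ j, z j ^ 2) - 4 * I * z 0 ^ 2 * conj (∑ j, z j ^ 2) := by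
  simp [herm, Xv, Mv, Fin.sum_univ_five, map_ofNat]
  ring

/-! The three fixed lines. -/

/-- The degenerate point. -/
noncomputable def p0 : E5 := ![1 / 2, I / 2, -I / 2, -1 / 2, 0]

/-- The second point. -/
noncomputable def p1 : E5 := ![((√3 - 1) / 4 : ℝ), I / 2, -I / 2, ((√3 + 1) / 4 : ℝ), 0]

/-- The third point. -/
noncomputable def p2 : E5 := ![(-(√3 + 1) / 4 : ℝ), I / 2, -I / 2, (-(√3 - 1) / 4 : ℝ), 0]

/-- The degenerate direction. -/
noncomputable def w0 : E5 := ![1, I, I, 1, 0]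

theorem sq3 : √3 ^ 2 = 3 := Real.sq_sqrt (by norm_num)

theorem p0_mem : p0 ∈ unitCone := by
  refine ⟨?_, ?_⟩ <;> simp [herm, p0, Fin.sum_univ_five, map_ofNat, Complex.ext_iff, sq] <;>
    norm_num

theorem p1_mem : p1 ∈ unitCone := by
  have := sq3
  refine ⟨?_, ?_⟩ <;> simp [herm, p1, Fin.sum_univ_five, map_ofNat, Complex.ext_iff, sq] <;>
    nlinarith

theorem p2_mem : p2 ∈ unitCone := by
  have := sq3
  refine ⟨?_, ?_⟩ <;> simp [herm, p2, Fin.sum_univ_five, map_ofNat, Complex.ext_iff, sq] <;>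
    nlinarith

theorem Xv_p0 : Xv p0 = 0 := by
  ext j
  fin_cases j <;> simp [Xv, Mv, p0, map_ofNat, Complex.ext_iff, sq] <;> norm_num

theorem Xv_p1 : Xv p1 = (-I * (3 * √3 / 2 : ℝ)) • p1 := by
  have := sq3
  have h3 : √3 ^ 3 = 3 * √3 := by linear_combination √3 * this
  ext j
  fin_cases j <;> simp [Xv, Mv, p1, map_ofNat, Complex.ext_iff, sq] <;> linarith

theorem Xv_p2 : Xv p2 = (-I * (-(3 * √3 / 2) : ℝ)) • p2 := by
  have := sq3
  have h3 : √3 ^ 3 = 3 * √3 := by linear_combination √3 * this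
  ext j
  fin_cases j <;> simp [Xv, Mv, p2, map_ofNat, Complex.ext_iff, sq] <;> linarith

theorem Xv_line : ∃ a b : E5, ∀ s : ℝ, Xv (p0 + s • w0) = s ^ 2 • (a + s • b) := by
  refine ⟨fun j => -I * (4 * conj (p0 j) + 4 * conj (w0 j)), fun j => -I * (4 * conj (w0 j)),
    fun s => ?_⟩
  ext j
  fin_cases j <;> simp [Xv, Mv, p0, w0, map_ofNat, Complex.ext_iff, sq] <;> ring

theorem w0_mem : w0 ∈ coneTangent p0 := by
  refine ⟨?_, ?_⟩ <;> simp [herm, p0, w0, Fin.sum_univ_five, map_ofNat, Complex.ext_iff]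

theorem classify_real (r u1 v1 u2 v2 u3 v3 ν : ℝ) (hr : r ≠ 0)
    (hn : r ^ 2 + u1 ^ 2 + v1 ^ 2 + u2 ^ 2 + v2 ^ 2 + u3 ^ 2 + v3 ^ 2 = 1)
    (hq1 : r ^ 2 + u1 ^ 2 - v1 ^ 2 + u2 ^ 2 - v2 ^ 2 + u3 ^ 2 - v3 ^ 2 = 0)
    (hq2 : u1 * v1 + u2 * v2 + u3 * v3 = 0)
    (e0r : -3 * r + (v1 - v2) + 4 * r ^ 2 * r = ν * r)
    (e0i : u1 - u2 = 0)
    (e1r : u1 - v3 + 4 * r ^ 2 * u1 = ν * u1)
    (e1i : v1 + (r + u3) - 4 * r ^ 2 * v1 = ν * v1)
    (e2r : u2 + v3 + 4 * r ^ 2 * u2 = ν * u2)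
    (e2i : v2 - (r + u3) - 4 * r ^ 2 * v2 = ν * v2)
    (e3r : u3 + (v1 - v2) + 4 * r ^ 2 * u3 = ν * u3) :
    u1 = 0 ∧ u2 = 0 ∧ v3 = 0 ∧ ∃ σ : ℝ, (σ = 1 ∨ σ = -1) ∧ v1 = σ / 2 ∧ v2 = -σ / 2 ∧
      ((r = σ / 2 ∧ u3 = -σ / 2) ∨ (r = σ * ((√3 - 1) / 4) ∧ u3 = σ * ((√3 + 1) / 4)) ∨
        (r = σ * (-(√3 + 1) / 4) ∧ u3 = σ * (-(√3 - 1) / 4))) := by
  have hu : u2 = u1 := by linarith
  subst hu
  have hv3 : v3 = 0 := by linarith
  subst hv3
  -- u2 = 0
  have hu2 : u2 = 0 := by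
    by_contra h
    have h1 : ν = 1 + 4 * r ^ 2 := by
      have : (ν - (1 + 4 * r ^ 2)) * u2 = 0 := by linarith
      rcases mul_eq_zero.1 this with h' | h'
      · linarith
      · exact absurd h' h
    have h2 : v1 - v2 = 0 := by rw [h1] at e3r; linarith
    rw [h1, h2] at e0r
    apply hr; linarith
  subst hu2
  have hw : v1 + v2 = 0 := by
    by_contra h
    have h1 : ν = 1 - 4 * r ^ 2 := by
      have : (ν - (1 - 4 * r ^ 2)) * (v1 + v2) = 0 := by linarith
      rcases mul_eq_zero.1 this with h' | h'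
      · linarith
      · exact absurd h' h
    have h2 : u3 = -r := by rw [h1] at e1i; linarith
    subst h2
    have h3 : r ^ 2 = 1 / 4 := by linarith
    rw [h1, h3] at e3r
    have h4 : v1 - v2 = 2 * r := by linarith
    have h5 : v1 ^ 2 + v2 ^ 2 = 1 / 2 := by linarith
    have h6 : (v1 + v2) ^ 2 = 0 := by
      linear_combination 2 * h5 - (v1 - v2 + 2 * r) * h4 - 4 * h3
    exact h (pow_eq_zero_iff two_ne_zero |>.1 h6)
  have hv2 : v2 = -v1 := by linarith
  subst hv2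
  have hv : v1 ^ 2 = 1 / 4 := by linarith
  have hru : r ^ 2 + u3 ^ 2 = 1 / 2 := by linarith
  refine ⟨rfl, rfl, rfl, 2 * v1, ?_, by ring, by ring, ?_⟩
  · have : (2 * v1 - 1) * (2 * v1 + 1) = 0 := by linarith
    rcases mul_eq_zero.1 this with h | h
    · left; linarith
    · right; linarith
  -- eliminate ν
  set x := 2 * v1 * r with hx
  set y := 2 * v1 * u3 with hy
  have hσ : (2 * v1) * (2 * v1) = 1 := by linarith
  have hrx : r = 2 * v1 * x := by rw [hx, ← mul_assoc, hσ, one_mul]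
  have huy : u3 = 2 * v1 * y := by rw [hy, ← mul_assoc, hσ, one_mul]
  have hx2 : x ^ 2 = r ^ 2 := by rw [hx, mul_pow, sq (2 * v1), hσ, one_mul]
  have hy2 : y ^ 2 = u3 ^ 2 := by rw [hy, mul_pow, sq (2 * v1), hσ, one_mul]
  have f0 : -3 * x + 1 + 4 * x ^ 2 * x = ν * x := by
    rw [hx2]; linear_combination (2 * v1) * e0r - hσ
  have f3 : y + 1 + 4 * x ^ 2 * y = ν * y := by
    rw [hx2]; linear_combination (2 * v1) * e3r - hσ
  have hxy : x ^ 2 + y ^ 2 = 1 / 2 := by rw [hx2, hy2]; exact hru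
  have g1 : y - x = 4 * x * y := by linear_combination y * f0 - x * f3
  have g2 : (x + y) * ((x + y) ^ 2 - 3 / 4) = 0 ∧ True := by
    refine ⟨?_, trivial⟩
    have k2 : (4 * (x * y) + 1) * (8 * (x * y) - 1) = 0 := by
      linear_combination (-2 * (y - x + 4 * x * y)) * g1 + 2 * hxy
    rcases mul_eq_zero.1 k2 with h | h
    · have : (x + y) ^ 2 = 0 := by linear_combination hxy + (1 / 2) * h
      rw [pow_eq_zero_iff two_ne_zero |>.1 this, zero_mul]
    · have : (x + y) ^ 2 - 3 / 4 = 0 := by linear_combination hxy + (1 / 4) * h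
      rw [this, mul_zero]
  have hs := sq3
  rcases mul_eq_zero.1 g2.1 with h | h
  · left
    have hxy' : y = -x := by linarith
    have hx0 : x ≠ 0 := by
      intro h0; apply hr; rw [hrx, h0, mul_zero]
    have : x * (2 * x - 1) = 0 := by rw [hxy'] at g1; linarith
    have hxv : x = 1 / 2 := by
      rcases mul_eq_zero.1 this with h' | h'
      · exact absurd h' hx0
      · linarith
    constructor
    · rw [hrx, hxv]; ring
    · rw [huy, hxy', hxv]; ring
  · right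
    have hp : x * y = 1 / 8 := by linear_combination (1 / 2) * h - (1 / 2) * hxy
    have hd : y - x = 1 / 2 := by linarith
    have : (x + y - √3 / 2) * (x + y + √3 / 2) = 0 := by linear_combination h - (1 / 4) * hs
    rcases mul_eq_zero.1 this with h' | h'
    · left
      constructor
      · rw [hrx]; congr 1; linarith
      · rw [huy]; congr 1; linarith
    · right
      constructor
      · rw [hrx]; congr 1; linarith
      · rw [huy]; congr 1; linarith

theorem classify (z : E5) (hz : z ∈ unitCone) (h4 : z 4 = 0) (l : ℂ) (hl : l.re = 0)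
    (hX : Xv z = l • z) : ∃ c : ℂ, c ≠ 0 ∧ (z = c • p0 ∨ z = c • p1 ∨ z = c • p2) := by
  have h0 : z 0 ≠ 0 := by
    intro h0
    have e0 := congrFun hX 0
    have e1 := congrFun hX 1
    have e2 := congrFun hX 2
    obtain ⟨hn, hq⟩ := hz
    simp [Xv, Mv, h0] at e0 e1 e2
    simp only [herm, Fin.sum_univ_five, h0, h4] at hn hq
    have h12 : z 1 = z 2 := sub_eq_zero.1 e0
    rw [← h12] at e2 hn hq
    have h3 : z 3 = 0 := by linear_combination (1 / 2) * e1 - (1 / 2) * e2 + z 3 * I_mul_I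
    rw [h3] at hq hn
    have h1 : z 1 = 0 := by
      have : z 1 ^ 2 = 0 := by linear_combination (1 / 2) * hq
      exact pow_eq_zero_iff two_ne_zero |>.1 this
    rw [h1] at hn
    simp at hn
  have hn0 : (‖z 0‖ : ℂ) ≠ 0 := by simpa using h0
  set c : ℂ := conj (z 0) / ‖z 0‖ with hc
  have hcn : ‖c‖ = 1 := by
    rw [hc, norm_div, Complex.norm_conj, Complex.norm_real, norm_norm,
      div_self (by simpa using h0)]
  set y : E5 := c • z with hy
  have hyc : y ∈ unitCone := smul_mem_cone z hz c hcn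
  have hXy : Xv y = l • y := by rw [hy, Xv_smul z c hcn, hX, smul_comm]
  have hy0 : y 0 = (‖z 0‖ : ℂ) := by
    simp only [hy, hc, Pi.smul_apply, smul_eq_mul]
    rw [div_mul_eq_mul_div, Complex.conj_mul', div_eq_iff hn0]; ring
  have hy4 : y 4 = 0 := by simp [hy, h4]
  have hzy : z = conj c • y := by rw [hy, smul_smul, conj_mul_of_norm hcn, one_smul]
  have hc0 : conj c ≠ 0 := by
    intro h; have := conj_mul_of_norm hcn; rw [h, zero_mul] at this; exact zero_ne_one this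
  set r : ℝ := ‖z 0‖ with hr
  have hr0 : r ≠ 0 := by simpa [hr] using h0
  clear_value y r
  have e0 := congrFun hXy 0
  have e1 := congrFun hXy 1
  have e2 := congrFun hXy 2
  have e3 := congrFun hXy 3
  obtain ⟨hn, hq⟩ := hyc
  simp [Xv, Mv, hy0, Complex.ext_iff, hl, sq] at e0 e1 e2 e3
  simp [herm, Fin.sum_univ_five, hy0, hy4, Complex.ext_iff, sq] at hn hq
  obtain ⟨k1, k2, k3, σ, hσ, k4, k5, k6⟩ := classify_real r (y 1).re (y 1).im (y 2).re (y 2).im
    (y 3).re (y 3).im (-l.im) hr0 (by linarith [hn.1]) (by linarith [hq.1]) (by linarith [hq.2])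
    (by linarith [e0.1, e0.2]) (by linarith [e0.1, e0.2]) (by linarith [e1.1, e1.2])
    (by linarith [e1.1, e1.2]) (by linarith [e2.1, e2.2]) (by linarith [e2.1, e2.2])
    (by linarith [e3.1, e3.2])
  have hσ0 : (σ : ℂ) ≠ 0 := by rcases hσ with h | h <;> simp [h]
  refine ⟨conj c * σ, mul_ne_zero hc0 hσ0, ?_⟩
  rcases k6 with ⟨a, b⟩ | ⟨a, b⟩ | ⟨a, b⟩
  · left
    rw [hzy, mul_smul]; congr 1
    ext j
    fin_cases j <;> simp [p0, hy0, hy4, Complex.ext_iff, k1, k2, k3, k4, k5, a, b] <;> ring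
  · right; left
    rw [hzy, mul_smul]; congr 1
    ext j
    fin_cases j <;> simp [p1, hy0, hy4, Complex.ext_iff, k1, k2, k3, k4, k5, a, b] <;> ring
  · right; right
    rw [hzy, mul_smul]; congr 1
    ext j
    fin_cases j <;> simp [p2, hy0, hy4, Complex.ext_iff, k1, k2, k3, k4, k5, a, b] <;> ring

end Crest.Agent.R205
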