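import Mathlib

/-! Two elementary estimates for solutions of Lipschitz differential equations. -/

set_option autoImplicit false

open scoped Topology NNReal
open Set Filter

namespace Crest.Agent.R205

variable {F : Type*} [NormedAddCommGroup F] [NormedSpace ℝ F]

/-- A short periodic orbit of a Lipschitz vector field is stationary. -/
theorem short_periodic (W : F → F) (S : Set F) (L : ℝ≥0) (hW : LipschitzOnWith L W S)
    (P : ℝ → F) (T : ℝ) (hT : 0 < T) (hLT : L * T < 1)
    (hP : ∀ t ∈ Icc 0 T, HasDerivAt P (W (P t)) t) (hS : ∀ t ∈ Icc 0 T, P t ∈ S)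
    (hper : P T = P 0) : ∀ t ∈ Icc 0 T, W (P t) = 0 := by
  have hPc : ContinuousOn P (Icc 0 T) := fun t ht => (hP t ht).continuousAt.continuousWithinAt
  have hWc : ContinuousOn (fun t => ‖W (P t)‖) (Icc 0 T) :=
    (hW.continuousOn.comp hPc hS).norm
  obtain ⟨t₀, ht₀, hmax⟩ := isCompact_Icc.exists_isMaxOn (nonempty_Icc.2 hT.le) hWc
  set A := ‖W (P t₀)‖ with hA
  have hA0 : 0 ≤ A := norm_nonneg _
  have hb : ∀ t ∈ Icc 0 T, ‖W (P t)‖ ≤ A := fun t ht => hmax ht
  have h1 : ∀ t ∈ Icc 0 T, ‖P t - P t₀‖ ≤ A * T := by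
    intro t ht
    have := Convex.norm_image_sub_le_of_norm_hasDerivWithin_le (𝕜 := ℝ) (f := P)
      (f' := fun t => W (P t)) (s := Icc 0 T) (fun x hx => (hP x hx).hasDerivWithinAt) hb
      (convex_Icc 0 T) ht₀ ht
    refine this.trans ?_
    gcongr
    rw [Real.norm_eq_abs, abs_le]
    constructor <;> linarith [ht.1, ht.2, ht₀.1, ht₀.2]
  have h2 : ∀ t ∈ Icc 0 T, ‖W (P t) - W (P t₀)‖ ≤ L * (A * T) := by
    intro t ht
    refine (hW.norm_sub_le (hS t ht) (hS t₀ ht₀)).trans ?_
    gcongr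
    exact h1 t ht
  have h3 := Convex.norm_image_sub_le_of_norm_hasDerivWithin_le (𝕜 := ℝ)
      (f := fun t => P t - t • W (P t₀))
      (f' := fun t => W (P t) - W (P t₀)) (s := Icc 0 T)
      (fun x hx => by
        have := (hP x hx).fun_sub ((hasDerivAt_id x).smul_const (W (P t₀)))
        simpa using this.hasDerivWithinAt) h2
      (convex_Icc 0 T) (left_mem_Icc.2 hT.le) (right_mem_Icc.2 hT.le)
  have h4 : P T - T • W (P t₀) - (P 0 - (0 : ℝ) • W (P t₀)) = -(T • W (P t₀)) := by
    rw [hper]; simp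
  rw [h4, norm_neg, norm_smul, sub_zero, Real.norm_eq_abs, abs_of_pos hT, ← hA] at h3
  have h5 : A = 0 := by
    by_contra hne
    have hpos : 0 < A := lt_of_le_of_ne hA0 (Ne.symm hne)
    have : T * A * (L * T) < T * A * 1 := by gcongr
    nlinarith
  intro t ht
  exact norm_le_zero_iff.1 (h5 ▸ hb t ht)

/-- A solution stays close to its initial point, linearly in the size of the field there. -/
theorem near_const (V : F → F) (K : ℝ≥0) (hK : LipschitzWith K V) (T : ℝ) (hT : 0 ≤ T) :
    ∃ C : ℝ, ∀ (f : ℝ → F), (∀ t ∈ Icc 0 T, HasDerivAt f (V (f t)) t) →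
      ‖f T - f 0‖ ≤ C * ‖V (f 0)‖ := by
  refine ⟨(Real.exp ((K + 1) * T) - 1) / (K + 1), fun f hf => ?_⟩
  have hK1 : ((K : ℝ) + 1) ≠ 0 := by positivity
  have := norm_le_gronwallBound_of_norm_deriv_right_le (f := fun t => f t - f 0)
    (f' := fun t => V (f t)) (δ := 0) (K := K + 1) (ε := ‖V (f 0)‖) (a := 0) (b := T)
    (fun t ht => ((hf t ht).continuousAt.sub continuousAt_const).continuousWithinAt)
    (fun t ht => ((hf t (Ico_subset_Icc_self ht)).sub_const _).hasDerivWithinAt) (by simp)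
    (fun t _ => by
      have h1 := hK.norm_sub_le (f t) (f 0)
      have h2 := norm_sub_norm_le (V (f t)) (V (f 0))
      nlinarith [norm_nonneg (f t - f 0)]) T (right_mem_Icc.2 hT)
  rw [gronwallBound_of_K_ne_0 hK1] at this
  simp only [zero_mul, zero_add, sub_zero] at this
  refine this.trans (le_of_eq ?_)
  field_simp

/-- The derivative along a line of a function that is quadratic along that line. -/
theorem fderiv_of_quadratic (g : F → ℝ) (x w : F) (hg : DifferentiableAt ℝ g x) (a b c : ℝ)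
    (h : ∀ s : ℝ, g (x + s • w) = a + b * s + c * s ^ 2) : fderiv ℝ g x w = b := by
  have h1 : HasDerivAt (fun s : ℝ => x + s • w) w 0 := by
    simpa using ((hasDerivAt_id (0 : ℝ)).smul_const w).const_add x
  have h2 : HasFDerivAt g (fderiv ℝ g x) (x + (0 : ℝ) • w) := by simpa using hg.hasFDerivAt
  have h3 := h2.comp_hasDerivAt (0 : ℝ) h1
  have h4 : HasDerivAt (fun s : ℝ => a + b * s + c * s ^ 2) b 0 := by
    have := (((hasDerivAt_id (0 : ℝ)).const_mul b).const_add a).fun_add
      (((hasDerivAt_id (0 : ℝ)).fun_pow 2).const_mul c)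
    simpa using this
  have h5 : (g ∘ fun s : ℝ => x + s • w) = fun s : ℝ => a + b * s + c * s ^ 2 := funext h
  rw [h5] at h3
  exact h3.unique h4

end Crest.Agent.R205
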