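import Mathlib
import Crest.Agent.R205.Alg
import Crest.Agent.R205.Dyn
import Crest.Agent.Lib.SmoothFlow.Flow

/-! Smoothness statements, the cut-off vector field and its flow on the cone. -/

set_option autoImplicit false

open scoped ComplexConjugate ContDiff NNReal Topology
open Crest.GeometryTopology.Quadric Complex Set Filter

namespace Crest.Agent.R205

@[fun_prop]
theorem contDiff_conj' {F : Type*} [NormedAddCommGroup F] [NormedSpace ℝ F] {n : WithTop ℕ∞}
    {f : F → ℂ} (hf : ContDiff ℝ n f) : ContDiff ℝ n (fun x => conj (f x)) :=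
  Complex.conjCLE.contDiff.comp hf

@[fun_prop]
theorem contDiff_re' {F : Type*} [NormedAddCommGroup F] [NormedSpace ℝ F] {n : WithTop ℕ∞}
    {f : F → ℂ} (hf : ContDiff ℝ n f) : ContDiff ℝ n (fun x => (f x).re) :=
  Complex.reCLM.contDiff.comp hf

@[fun_prop]
theorem contDiff_ofReal' {F : Type*} [NormedAddCommGroup F] [NormedSpace ℝ F] {n : WithTop ℕ∞}
    {f : F → ℝ} (hf : ContDiff ℝ n f) : ContDiff ℝ n (fun x => ((f x : ℝ) : ℂ)) :=
  Complex.ofRealCLM.contDiff.comp hf

theorem contDiff_Mv {n : WithTop ℕ∞} : ContDiff ℝ n Mv := by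
  refine contDiff_pi.2 fun j => ?_
  fin_cases j <;> simp [Mv] <;> fun_prop

theorem contDiff_Jv {n : WithTop ℕ∞} : ContDiff ℝ n Jv := by
  refine contDiff_pi.2 fun j => ?_
  fin_cases j <;> simp [Jv] <;> fun_prop

theorem contDiff_Xv {n : WithTop ℕ∞} : ContDiff ℝ n Xv := by
  refine contDiff_pi.2 fun j => ?_
  have := contDiff_pi.1 (contDiff_Mv (n := n)) j
  unfold Xv
  fun_prop

theorem contDiff_Gr {F : Type*} [NormedAddCommGroup F] [NormedSpace ℝ F] {n : WithTop ℕ∞}
    {a b : F → ℝ} {z : F → E5} (ha : ContDiff ℝ n a) (hb : ContDiff ℝ n b)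
    (hz : ContDiff ℝ n z) : ContDiff ℝ n (fun x => Gr (a x) (b x) (z x)) := by
  refine contDiff_pi.2 fun j => ?_
  have h0 := contDiff_pi.1 hz 0
  have h1 := contDiff_pi.1 hz 1
  have h2 := contDiff_pi.1 hz 2
  have h3 := contDiff_pi.1 hz 3
  have h4 := contDiff_pi.1 hz 4
  fin_cases j <;> simp [Gr] <;> fun_prop

theorem contDiff_herm {F : Type*} [NormedAddCommGroup F] [NormedSpace ℝ F] {n : WithTop ℕ∞}
    {u w : F → E5} (hu : ContDiff ℝ n u) (hw : ContDiff ℝ n w) :
    ContDiff ℝ n (fun x => herm (u x) (w x)) := by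
  unfold herm
  exact ContDiff.sum fun j _ =>
    (contDiff_conj' (contDiff_pi.1 hu j)).mul (contDiff_pi.1 hw j)

theorem contDiff_Q1 {n : WithTop ℕ∞} : ContDiff ℝ n Q1 :=
  contDiff_re' (contDiff_herm contDiff_id (contDiff_Jv.const_smul I))

theorem contDiff_Q2 {n : WithTop ℕ∞} : ContDiff ℝ n Q2 :=
  contDiff_re' (contDiff_herm contDiff_id contDiff_Mv)

/-- The cut-off function. -/
noncomputable def chi : ContDiffBump (0 : E5) := ⟨2, 3, by norm_num, by norm_num⟩

/-- The cut-off vector field. -/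
noncomputable def Vv (z : E5) : E5 := chi z • Xv z

theorem Vv_eq {z : E5} (hz : ‖z‖ ≤ 2) : Vv z = Xv z := by
  rw [Vv, chi.one_of_mem_closedBall (by simpa [chi] using hz), one_smul]

theorem Vv_eq_of_mem {z : E5} (hz : z ∈ unitCone) : Vv z = Xv z :=
  Vv_eq ((norm_le_of_mem z hz).trans (by norm_num))

theorem contDiff_Vv : ContDiff ℝ ∞ Vv := chi.contDiff.smul contDiff_Xv

theorem exists_lip_Vv : ∃ K : ℝ≥0, LipschitzWith K Vv :=
  ContDiff.lipschitzWith_of_hasCompactSupport (chi.hasCompactSupport.smul_right) contDiff_Vv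
    (by simp)

theorem hasDerivAt_herm {u w : ℝ → E5} {u' w' : E5} {t : ℝ} (hu : HasDerivAt u u' t)
    (hw : HasDerivAt w w' t) :
    HasDerivAt (fun s => herm (u s) (w s)) (herm u' (w t) + herm (u t) w') t := by
  unfold herm
  rw [← Finset.sum_add_distrib]
  refine HasDerivAt.fun_sum fun j _ => ?_
  exact (hasDerivAt_pi.1 hu j).star.mul (hasDerivAt_pi.1 hw j)

/-- Solutions of the cut-off equation that start on the cone stay on it. -/
theorem stay_cone (f : ℝ → E5) (T : ℝ) (hf : ∀ t ∈ Icc 0 T, HasDerivAt f (Vv (f t)) t)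
    (h0 : f 0 ∈ unitCone) : ∀ t ∈ Icc 0 T, f t ∈ unitCone := by
  have hc : ContinuousOn f (Icc 0 T) := fun t ht => (hf t ht).continuousAt.continuousWithinAt
  obtain ⟨C, hC⟩ := isCompact_Icc.exists_bound_of_continuousOn hc
  set g : ℝ → ℂ × ℂ := fun t => (∑ j, f t j ^ 2, herm (f t) (f t) - 1) with hg
  set g' : ℝ → ℂ × ℂ := fun t => (2 * ∑ j, f t j * Vv (f t) j,
    herm (Vv (f t)) (f t) + herm (f t) (Vv (f t))) with hg'
  have hd : ∀ t ∈ Icc 0 T, HasDerivAt g (g' t) t := by
    intro t ht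
    refine HasDerivAt.prodMk ?_ ((hasDerivAt_herm (hf t ht) (hf t ht)).sub_const 1)
    rw [Finset.mul_sum]
    refine HasDerivAt.fun_sum fun j _ => ?_
    have := (hasDerivAt_pi.1 (hf t ht) j).fun_pow 2
    simpa [mul_assoc] using this
  have hz := eq_zero_of_abs_deriv_le_mul_abs_self_of_eq_zero_right (f := g) (f' := g')
    (K := 2 + 8 * C ^ 2) (a := 0) (b := T)
    (fun t ht => (hd t ht).continuousAt.continuousWithinAt)
    (fun t ht => (hd t (Ico_subset_Icc_self ht)).hasDerivWithinAt)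
    (by simp [hg, h0.1, h0.2])
    (fun t ht => by
      have hCt := hC t (Ico_subset_Icc_self ht)
      have h0' : ‖f t 0‖ ≤ C := (norm_le_pi_norm (f t) 0).trans hCt
      have h0'' : ‖f t 0‖ ^ 2 ≤ C ^ 2 := by gcongr
      have hq : ‖∑ j, f t j ^ 2‖ ≤ ‖g t‖ := norm_fst_le (g t)
      have hn : ‖herm (f t) (f t) - 1‖ ≤ ‖g t‖ := norm_snd_le (g t)
      have hχ : ‖(chi (f t) : ℂ)‖ ≤ 1 := by
        rw [Complex.norm_real, Real.norm_eq_abs, abs_of_nonneg chi.nonneg]; exact chi.le_one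
      have e1 : 2 * ∑ j, f t j * Vv (f t) j = (chi (f t) : ℂ) * (2 * ∑ j, f t j * Xv (f t) j) := by
        simp [Vv, Fin.sum_univ_five]; ring
      have e2 : herm (Vv (f t)) (f t) + herm (f t) (Vv (f t)) =
          (chi (f t) : ℂ) * (herm (Xv (f t)) (f t) + herm (f t) (Xv (f t))) := by
        simp [Vv, herm, Fin.sum_univ_five]; ring
      have hg0 := norm_nonneg (g t)
      refine (Prod.norm_def _).le.trans (max_le ?_ ?_)
      · show ‖2 * ∑ j, f t j * Vv (f t) j‖ ≤ _
        rw [e1, bil_Xv, norm_mul]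
        refine (mul_le_of_le_one_left (norm_nonneg _) hχ).trans ?_
        rw [norm_mul, norm_mul, norm_neg, norm_I, one_mul]
        have := norm_add_le (∑ j, f t j ^ 2) (4 * f t 0 ^ 2 * (herm (f t) (f t) - 1))
        rw [norm_mul, norm_mul, norm_pow] at this
        simp only [Complex.norm_ofNat] at this ⊢
        have h5 : ‖f t 0‖ ^ 2 * ‖herm (f t) (f t) - 1‖ ≤ C ^ 2 * ‖g t‖ := by gcongr
        nlinarith
      · show ‖herm (Vv (f t)) (f t) + herm (f t) (Vv (f t))‖ ≤ _
        rw [e2, herm_Xv_self, norm_mul]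
        refine (mul_le_of_le_one_left (norm_nonneg _) hχ).trans ?_
        refine (norm_sub_le _ _).trans ?_
        simp only [norm_mul, norm_I, norm_pow, Complex.norm_ofNat, Complex.norm_conj, mul_one]
        have h5 : ‖f t 0‖ ^ 2 * ‖∑ j, f t j ^ 2‖ ≤ C ^ 2 * ‖g t‖ := by gcongr
        nlinarith)
  intro t ht
  have := hz t ht
  simp only [hg, Prod.mk_eq_zero, sub_eq_zero] at this
  exact ⟨this.2, this.1⟩

/-- The rank-one projector attached to a vector. -/
noncomputable def pr (z : E5) : Fin 5 → E5 := fun j k => z j * conj (z k)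

/-- Half of the induced field on matrices. -/
noncomputable def Av (P : Fin 5 → E5) (j k : Fin 5) : ℂ :=
  -I * (Mv (fun l => P l k) j + 4 * P 0 j * P 0 k)

/-- The induced field on matrices. -/
noncomputable def Wv (P : Fin 5 → E5) : Fin 5 → E5 := fun j k => Av P j k + conj (Av P k j)

theorem Av_pr (z : E5) (j k : Fin 5) : Av (pr z) j k = Xv z j * conj (z k) := by
  fin_cases j <;> simp [Av, pr, Xv, Mv] <;> ring

theorem Wv_pr (z : E5) (j k : Fin 5) :
    Wv (pr z) j k = Xv z j * conj (z k) + z j * conj (Xv z k) := by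
  simp [Wv, Av_pr, mul_comm]

theorem contDiff_Wv : ContDiff ℝ 1 Wv := by
  have hA : ∀ j k, ContDiff ℝ 1 (fun P => Av P j k) := by
    intro j k
    have : ContDiff ℝ 1 (fun P : Fin 5 → E5 => Mv (fun l => P l k) j) :=
      contDiff_pi.1 (contDiff_Mv.comp (contDiff_pi.2 fun l => by fun_prop)) j
    unfold Av
    fun_prop
  refine contDiff_pi.2 fun j => contDiff_pi.2 fun k => ?_
  exact (hA j k).add (contDiff_conj' (hA k j))

theorem exists_lip_Wv : ∃ L : ℝ≥0, LipschitzOnWith L Wv (Metric.closedBall 0 1) :=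
  (contDiff_Wv.locallyLipschitz.locallyLipschitzOn).exists_lipschitzOnWith_of_compact
    (isCompact_closedBall 0 1)

theorem pr_mem {z : E5} (hz : z ∈ unitCone) : pr z ∈ Metric.closedBall (0 : Fin 5 → E5) 1 := by
  rw [mem_closedBall_zero_iff]
  have h := norm_le_of_mem z hz
  refine (pi_norm_le_iff_of_nonneg zero_le_one).2 fun j =>
    (pi_norm_le_iff_of_nonneg zero_le_one).2 fun k => ?_
  rw [pr, norm_mul, Complex.norm_conj]
  exact mul_le_one₀ ((norm_le_pi_norm z j).trans h) (norm_nonneg _) ((norm_le_pi_norm z k).trans h)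

theorem hasDerivAt_pr {f : ℝ → E5} {t : ℝ} (hf : HasDerivAt f (Xv (f t)) t) :
    HasDerivAt (fun s => pr (f s)) (Wv (pr (f t))) t := by
  refine hasDerivAt_pi.2 fun j => hasDerivAt_pi.2 fun k => ?_
  rw [Wv_pr]
  exact (hasDerivAt_pi.1 hf j).mul (hasDerivAt_pi.1 hf k).star

theorem pr_smul (z : E5) (c : ℂ) (hc : ‖c‖ = 1) : pr (c • z) = pr z := by
  have h := conj_mul_of_norm hc
  ext j k
  simp only [pr, Pi.smul_apply, smul_eq_mul, map_mul]
  linear_combination (z j * conj (z k)) * h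

theorem eigen_of_Wv {z : E5} (hz : z ∈ unitCone) (h : Wv (pr z) = 0) :
    ∃ l : ℂ, l.re = 0 ∧ Xv z = l • z := by
  have h' : ∀ j k, Xv z j * conj (z k) + z j * conj (Xv z k) = 0 := fun j k => by
    rw [← Wv_pr, h]; rfl
  have hn := hz.1
  simp only [herm, Fin.sum_univ_five] at hn
  refine ⟨-herm (Xv z) z, ?_, ?_⟩
  · have e := herm_Xv_self z
    rw [hz.2] at e
    have e2 : herm z (Xv z) = conj (herm (Xv z) z) := by
      simp [herm, Fin.sum_univ_five, mul_comm]
    rw [e2, Complex.add_conj] at e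
    have : (herm (Xv z) z).re = 0 := by simpa using e
    simp [this]
  · ext j
    simp only [herm, Fin.sum_univ_five, Pi.smul_apply, smul_eq_mul]
    linear_combination z 0 * h' j 0 + z 1 * h' j 1 + z 2 * h' j 2 + z 3 * h' j 3 + z 4 * h' j 4
      - Xv z j * hn

theorem four_eq_zero {z : E5} (hz : z ∈ unitCone) (h : pr (Gr (-1) 0 z) = pr z) : z 4 = 0 := by
  by_contra h4
  have h4' : conj (z 4) ≠ 0 := by simpa using h4
  have e0 := congrFun (congrFun h 0) 4
  have e1 := congrFun (congrFun h 1) 4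
  have e2 := congrFun (congrFun h 2) 4
  have e3 := congrFun (congrFun h 3) 4
  simp [pr, Gr] at e0 e1 e2 e3
  have k : ∀ a : ℂ, -(a * conj (z 4)) = a * conj (z 4) → a = 0 := fun a ha => by
    have : a * conj (z 4) = 0 := by linear_combination (-1 / 2) * ha
    exact (mul_eq_zero.1 this).resolve_right h4'
  have hq := hz.2
  simp only [Fin.sum_univ_five, k _ e0, k _ e1, k _ e2, k _ e3] at hq
  apply h4
  simpa using hq

end Crest.Agent.R205
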