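import Mathlib
import Crest.Agent.R205.Smooth

/-! The Hamiltonian diffeomorphism with three fixed points. -/

set_option autoImplicit false

open scoped ComplexConjugate ContDiff NNReal Topology
open Crest.GeometryTopology.Quadric Complex Set Filter

namespace Crest.Agent.R205

theorem hasDerivAt_Gr {a b : ℝ → ℝ} {z : ℝ → E5} {z' : E5} {c t : ℝ}
    (ha : HasDerivAt a (-c * b t) t) (hb : HasDerivAt b (c * a t) t) (hz : HasDerivAt z z' t) :
    HasDerivAt (fun s => Gr (a s) (b s) (z s))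
      (c • Jv (Gr (a t) (b t) (z t)) + Gr (a t) (b t) z') t := by
  have ha' := ha.ofReal_comp
  have hb' := hb.ofReal_comp
  have h0 := hasDerivAt_pi.1 hz 0
  have h1 := hasDerivAt_pi.1 hz 1
  have h2 := hasDerivAt_pi.1 hz 2
  have h3 := hasDerivAt_pi.1 hz 3
  have h4 := hasDerivAt_pi.1 hz 4
  refine hasDerivAt_pi.2 fun j => ?_
  fin_cases j
  · convert (ha'.fun_mul h0).fun_sub (hb'.fun_mul h1) using 1
    · simp [Gr]
    · simp [Gr, Jv]; ring
  · convert (hb'.fun_mul h0).fun_add (ha'.fun_mul h1) using 1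
    · simp [Gr]
    · simp [Gr, Jv]; ring
  · convert (ha'.fun_mul h2).fun_sub (hb'.fun_mul h3) using 1
    · simp [Gr]
    · simp [Gr, Jv]; ring
  · convert (hb'.fun_mul h2).fun_add (ha'.fun_mul h3) using 1
    · simp [Gr]
    · simp [Gr, Jv]; ring
  · convert h4 using 1
    · simp [Gr]
    · simp [Gr, Jv]

theorem herm_comb (c d : ℝ) (u v w : E5) :
    (herm (c • u + d • v) w).im = c * (herm u w).im + d * (herm v w).im := by
  simp [herm, Fin.sum_univ_five]; ring

theorem Gr_rsmul (a b : ℝ) (x : E5) (c : ℝ) : Gr a b (c • x) = c • Gr a b x := by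
  ext j
  fin_cases j <;> simp [Gr] <;> ring

theorem g_of_four {z : E5} (h : z 4 = 0) : Gr (-1) 0 z = (-1 : ℂ) • z := by
  ext j
  fin_cases j <;> simp [Gr, h]

theorem span_ne {u v : E5} (h : u 0 * v 1 ≠ u 1 * v 0) :
    Submodule.span ℂ {u} ≠ Submodule.span ℂ {v} := by
  intro e
  have : u ∈ Submodule.span ℂ {v} := e ▸ Submodule.mem_span_singleton_self u
  obtain ⟨c, rfl⟩ := Submodule.mem_span_singleton.1 this
  apply h
  simp; ring

theorem main : ∃ L : HamiltonianConeLift, (fixedLines L).ncard = 3 ∧ HasDegenerateFixedPoint L := by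
  obtain ⟨K, hK⟩ := exists_lip_Vv
  obtain ⟨L, hL⟩ := exists_lip_Wv
  obtain ⟨δ, hδ, Φ, hΦs, hΦ0, hΦd⟩ :=
    Crest.Agent.Lib.SmoothFlow.exists_smooth_flow Vv contDiff_Vv hK
  set ε : ℝ := min (δ / 8) (1 / (8 * (L + 1))) with hε
  have hε0 : 0 < ε := lt_min (by positivity) (by positivity)
  have hεδ : 8 * ε ≤ δ := by linarith [min_le_left (δ / 8) (1 / (8 * (L + 1)))]
  have hεL : L * (4 * ε) < 1 := by
    have h1 : ε ≤ 1 / (8 * (L + 1)) := min_le_right _ _
    rw [le_div_iff₀ (by positivity)] at h1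
    nlinarith [L.coe_nonneg]
  set τ : ℝ → ℝ := fun t => ε * (1 - Real.cos t) with hτ
  have hτ0 : ∀ t, 0 ≤ τ t := fun t => mul_nonneg hε0.le (by linarith [Real.cos_le_one t])
  have hτ2 : ∀ t, τ t ≤ 2 * ε := fun t => by
    have := Real.neg_one_le_cos t
    simp only [hτ]; nlinarith
  have hτd : ∀ t, HasDerivAt τ (ε * Real.sin t) t := fun t => by
    simpa using ((Real.hasDerivAt_cos t).const_sub 1).const_mul ε
  have hIoo : ∀ s, 0 ≤ s → s ≤ 4 * ε → s ∈ Ioo (-δ) δ := fun s h1 h2 => ⟨by linarith, by linarith⟩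
  -- uniqueness
  have huniq : ∀ (f : ℝ → E5) (S : ℝ), S ≤ 4 * ε → (∀ t ∈ Icc 0 S, HasDerivAt f (Vv (f t)) t) →
      ∀ t ∈ Icc 0 S, f t = Φ (t, f 0) := by
    intro f S hS hf
    have hg : ∀ t ∈ Icc 0 S, HasDerivAt (fun s => Φ (s, f 0)) (Vv (Φ (t, f 0))) t :=
      fun t ht => hΦd _ t (hIoo t ht.1 (ht.2.trans hS))
    exact ODE_solution_unique (v := fun _ => Vv) (K := K) (fun _ => hK)
      (fun t ht => (hf t ht).continuousAt.continuousWithinAt)
      (fun t ht => (hf t (Ico_subset_Icc_self ht)).hasDerivWithinAt)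
      (fun t ht => (hg t ht).continuousAt.continuousWithinAt)
      (fun t ht => (hg t (Ico_subset_Icc_self ht)).hasDerivWithinAt) (hΦ0 _).symm
  have hcone : ∀ z ∈ unitCone, ∀ t ∈ Icc 0 (4 * ε), Φ (t, z) ∈ unitCone := fun z hz =>
    stay_cone (fun s => Φ (s, z)) (4 * ε) (fun t ht => hΦd z t (hIoo t ht.1 ht.2))
      (by simpa [hΦ0] using hz)
  have hΦX : ∀ z ∈ unitCone, ∀ t ∈ Icc 0 (4 * ε),
      HasDerivAt (fun s => Φ (s, z)) (Xv (Φ (t, z))) t := fun z hz t ht => by
    rw [← Vv_eq_of_mem (hcone z hz t ht)]; exact hΦd z t (hIoo t ht.1 ht.2)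
  have hτm : ∀ t, τ t ∈ Icc 0 (4 * ε) := fun t => ⟨hτ0 t, by linarith [hτ2 t]⟩
  have hsmul : ∀ z ∈ unitCone, ∀ c : ℂ, ‖c‖ = 1 → ∀ t ∈ Icc 0 (4 * ε),
      Φ (t, c • z) = c • Φ (t, z) := by
    intro z hz c hc t ht
    have := huniq (fun s => c • Φ (s, z)) (4 * ε) le_rfl (fun t ht => by
      rw [Vv_eq_of_mem (smul_mem_cone _ (hcone z hz t ht) c hc), Xv_smul _ c hc]
      exact (hΦX z hz t ht).const_smul c) t ht
    simp only [hΦ0] at this
    exact this.symm
  have hg1 : ((-1 : ℝ)) ^ 2 + 0 ^ 2 = 1 := by norm_num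
  have hgcomm : ∀ z ∈ unitCone, ∀ t ∈ Icc 0 (4 * ε),
      Φ (t, Gr (-1) 0 z) = Gr (-1) 0 (Φ (t, z)) := by
    intro z hz t ht
    have := huniq (fun s => Gr (-1) 0 (Φ (s, z))) (4 * ε) le_rfl (fun t ht => by
      rw [Vv_eq_of_mem (Gr_mem _ _ hg1 _ (hcone z hz t ht)), Xv_g]
      have := hasDerivAt_Gr (a := fun _ => -1) (b := fun _ => 0) (c := 0)
        (by simpa using hasDerivAt_const t (-1 : ℝ)) (by simpa using hasDerivAt_const t (0 : ℝ))
        (hΦX z hz t ht)
      simpa using this) t ht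
    simp only [hΦ0] at this
    exact this.symm
  have hgg : ∀ z, Gr (-1) 0 (Gr (-1) 0 z) = z := fun z => by
    simpa using Gr_Gr (-1) 0 hg1 z
  have hcs : ∀ t : ℝ, Real.cos (Real.pi * t) ^ 2 + Real.sin (Real.pi * t) ^ 2 = 1 :=
    fun t => Real.cos_sq_add_sin_sq _
  have hΦτ : ContDiff ℝ ∞ (fun p : ℝ × E5 => Φ (τ p.1, p.2)) := by
    refine hΦs.comp_contDiff (by simp only [hτ]; fun_prop) fun p => ⟨?_, mem_univ _⟩
    exact hIoo _ (hτm p.1).1 (hτm p.1).2
  have hHs : ContDiff ℝ ∞ (fun p : ℝ × E5 => Real.pi * Q1 p.2 + ε * Real.sin p.1 *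
      Q2 (Gr (Real.cos (Real.pi * p.1)) (-Real.sin (Real.pi * p.1)) p.2)) := by
    refine (contDiff_const.mul (contDiff_Q1.comp contDiff_snd)).add
      (ContDiff.mul (by fun_prop) (contDiff_Q2.comp (contDiff_Gr ?_ ?_ contDiff_snd))) <;>
    fun_prop
  let Lf : HamiltonianConeLift :=
    { Ψ := fun p => Gr (Real.cos (Real.pi * p.1)) (Real.sin (Real.pi * p.1)) (Φ (τ p.1, p.2))
      H := fun p => Real.pi * Q1 p.2 + ε * Real.sin p.1 *
        Q2 (Gr (Real.cos (Real.pi * p.1)) (-Real.sin (Real.pi * p.1)) p.2)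
      smooth_Ψ := contDiff_Gr (by fun_prop) (by fun_prop) hΦτ
      smooth_H := hHs
      mapsTo_cone := fun t z hz => Gr_mem _ _ (hcs t) _ (hcone z hz _ (hτm t))
      compatible := fun t z hz c hc => ⟨c, by
        simp only
        rw [hsmul z hz c hc _ (hτm t), Gr_smul]⟩
      start := fun z hz => ⟨1, by simp [hτ, hΦ0, Gr_one]⟩
      invariant := fun t z hz c hc => by
        simp only
        rw [Gr_smul, Q1_smul _ c hc, Q2_smul _ c hc]
      hamilton := fun t _ z hz w hw => by
        simp only at hw ⊢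
        have ha : HasDerivAt (fun s => Real.cos (Real.pi * s))
            (-Real.pi * Real.sin (Real.pi * t)) t := by
          have := ((hasDerivAt_id t).const_mul Real.pi).cos
          simpa [mul_comm] using this
        have hb : HasDerivAt (fun s => Real.sin (Real.pi * s))
            (Real.pi * Real.cos (Real.pi * t)) t := by
          have := ((hasDerivAt_id t).const_mul Real.pi).sin
          simpa [mul_comm] using this
        have hz' : HasDerivAt (fun s => Φ (τ s, z)) ((ε * Real.sin t) • Xv (Φ (τ t, z))) t :=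
          (hΦX z hz _ (hτm t)).scomp t (hτd t)
        rw [(hasDerivAt_Gr ha hb hz').deriv, Gr_rsmul, herm_comb]
        set a := Real.cos (Real.pi * t)
        set b := Real.sin (Real.pi * t)
        set φ := Φ (τ t, z)
        have hdiff : DifferentiableAt ℝ (fun x : E5 => Real.pi * Q1 x + ε * Real.sin t *
            Q2 (Gr a (-b) x)) (Gr a b φ) :=
          ((hHs.comp (contDiff_prodMk_right t)).differentiable (by simp)) _
        rw [fderiv_of_quadratic _ (Gr a b φ) w hdiff
          (Real.pi * Q1 (Gr a b φ) + ε * Real.sin t * Q2 φ)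
          (Real.pi * (2 * (herm (Jv (Gr a b φ)) w).im) +
            ε * Real.sin t * (2 * (herm (Mv φ) (Gr a (-b) w)).re))
          (Real.pi * Q1 w + ε * Real.sin t * Q2 (Gr a (-b) w))
          (fun s => by rw [Gr_line, Gr_Gr a b (hcs t), Q1_line, Q2_line]; ring)]
        have h2 := hw.2
        rw [bil_Gr] at h2
        rw [herm_Gr, herm_Xv _ _ h2]
        ring }
  set T := τ 1 with hT
  have hT0 : 0 < T := by
    have : Real.cos 1 < 1 := by
      have := Real.cos_lt_cos_of_nonneg_of_le_pi (le_refl 0) (by linarith [Real.pi_gt_three])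
        zero_lt_one
      simpa using this
    exact mul_pos hε0 (by linarith)
  have hT2 : T ≤ 2 * ε := hτ2 1
  have hΨ1 : ∀ z, Lf.Ψ (1, z) = Gr (-1) 0 (Φ (T, z)) := fun z => by simp [Lf, hT]
  have heig : ∀ z ∈ unitCone, ∀ ν : ℝ, Xv z = (-I * ν) • z → z 4 = 0 →
      Lf.Ψ (1, z) = (-Complex.exp (-I * ν * T)) • z := by
    intro z hz ν hX h4
    have hn : ∀ s : ℝ, ‖Complex.exp (-I * ν * s)‖ = 1 := fun s => by
      rw [Complex.norm_exp]; simp
    have := huniq (fun s => Complex.exp (-I * ν * s) • z) (4 * ε) le_rfl (fun t _ => by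
      rw [Vv_eq_of_mem (smul_mem_cone _ hz _ (hn t)), Xv_smul _ _ (hn t), hX, smul_smul]
      have h1 : HasDerivAt (fun s : ℝ => -I * ν * (s : ℂ)) (-I * ν) t := by
        simpa using (hasDerivAt_id t).ofReal_comp.const_mul (-I * ν)
      exact h1.cexp.smul_const z) T (hτm 1)
    simp only [ofReal_zero, mul_zero, Complex.exp_zero, one_smul] at this
    rw [hΨ1, ← this, Gr_smul, g_of_four h4, smul_smul]
    simp
  refine ⟨Lf, ?_, ?_⟩
  · have hfix : fixedLines Lf =
        {Submodule.span ℂ {p0}, Submodule.span ℂ {p1}, Submodule.span ℂ {p2}} := by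
      ext ℓ
      constructor
      · rintro ⟨z, hz, rfl, hmem⟩
        obtain ⟨c, hc⟩ := Submodule.mem_span_singleton.1 hmem
        have hcn : ‖c‖ = 1 := norm_eq_one_of_smul_mem z hz c (hc ▸ Lf.mapsTo_cone 1 z hz)
        rw [hΨ1] at hc
        have h1 : Φ (T, z) = c • Gr (-1) 0 z := by rw [← Gr_smul, hc, hgg]
        have hTm : T ∈ Icc 0 (4 * ε) := hτm 1
        have h2 : Φ (2 * T, z) = c • c • z := by
          have := huniq (fun s => Φ (T + s, z)) T (by linarith) (fun t ht => by
            have := hΦd z (T + t) (hIoo _ (by linarith [ht.1]) (by linarith [ht.2]))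
            exact this.comp_const_add T t) T ⟨hT0.le, le_rfl⟩
          simp only [add_zero] at this
          rw [two_mul, this, h1, hsmul _ (Gr_mem _ _ hg1 _ hz) c hcn T hTm, hgcomm z hz T hTm, h1,
            Gr_smul, hgg]
        have hsub : ∀ t ∈ Icc 0 (2 * T), t ∈ Icc 0 (4 * ε) := fun t ht =>
          ⟨ht.1, by linarith [ht.2]⟩
        have hW := short_periodic Wv _ L hL (fun s => pr (Φ (s, z))) (2 * T) (by linarith)
          (by nlinarith [L.coe_nonneg])
          (fun t ht => hasDerivAt_pr (hΦX z hz t (hsub t ht)))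
          (fun t ht => pr_mem (hcone z hz t (hsub t ht)))
          (by simp only [h2, hΦ0, pr_smul _ c hcn])
        have hconst : pr (Φ (T, z)) = pr (Φ (0, z)) := by
          refine constant_of_has_deriv_right_zero (f := fun s => pr (Φ (s, z))) (a := 0) (b := T)
            (fun t ht => (hasDerivAt_pr (hΦX z hz t ⟨ht.1, by linarith [ht.2]⟩)).continuousAt
              |>.continuousWithinAt) (fun t ht => ?_) T ⟨hT0.le, le_rfl⟩
          have := hasDerivAt_pr (hΦX z hz t ⟨ht.1, by linarith [ht.2]⟩)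
          rw [hW t ⟨ht.1, by linarith [ht.2]⟩] at this
          exact this.hasDerivWithinAt
        rw [h1, pr_smul _ c hcn, hΦ0] at hconst
        have h4 := four_eq_zero hz hconst
        have hW0 := hW 0 ⟨le_rfl, by linarith⟩
        simp only [hΦ0] at hW0
        obtain ⟨l, hl, hX⟩ := eigen_of_Wv hz hW0
        obtain ⟨d, hd, h | h | h⟩ := classify z hz h4 l hl hX
        · left; rw [h, Submodule.span_singleton_smul_eq (IsUnit.mk0 d hd)]
        · right; left; rw [h, Submodule.span_singleton_smul_eq (IsUnit.mk0 d hd)]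
        · right; right; rw [h, Submodule.span_singleton_smul_eq (IsUnit.mk0 d hd)]; rfl
      · rintro (rfl | rfl | rfl)
        · refine ⟨p0, p0_mem, rfl, ?_⟩
          rw [heig p0 p0_mem 0 (by simp [Xv_p0]) (by simp [p0])]
          exact Submodule.smul_mem _ _ (Submodule.mem_span_singleton_self _)
        · refine ⟨p1, p1_mem, rfl, ?_⟩
          rw [heig p1 p1_mem _ Xv_p1 (by simp [p1])]
          exact Submodule.smul_mem _ _ (Submodule.mem_span_singleton_self _)
        · refine ⟨p2, p2_mem, rfl, ?_⟩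
          rw [heig p2 p2_mem _ Xv_p2 (by simp [p2])]
          exact Submodule.smul_mem _ _ (Submodule.mem_span_singleton_self _)
    rw [hfix]
    have h3 := sq3
    have h3' := Real.sqrt_nonneg 3
    refine Set.ncard_eq_three.2 ⟨_, _, _, span_ne ?_, span_ne ?_, span_ne ?_, rfl⟩
    · simp [p0, p1, Complex.ext_iff]; intro h; nlinarith
    · simp [p0, p2, Complex.ext_iff]; intro h; nlinarith
    · simp [p1, p2, Complex.ext_iff]; intro h; nlinarith
  · refine ⟨p0, p0_mem, -1, ?_, w0, w0_mem, ?_, 0, ?_⟩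
    · rw [heig p0 p0_mem 0 (by simp [Xv_p0]) (by simp [p0])]; simp
    · intro r h
      have := congrFun h 0
      simp [w0, p0, Complex.ext_iff] at this
    · obtain ⟨C, hC⟩ := near_const Vv K hK T hT0.le
      obtain ⟨a, b, hab⟩ := Xv_line
      have hline : HasDerivAt (fun s : ℝ => p0 + s • w0) w0 0 := by
        simpa using ((hasDerivAt_id (0 : ℝ)).smul_const w0).const_add p0
      have hD : HasDerivAt (fun s : ℝ => Φ (T, p0 + s • w0) - (p0 + s • w0)) 0 0 := by
        rw [hasDerivAt_iff_isLittleO_nhds_zero]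
        have hb : ∀ s : ℝ, ‖Φ (T, p0 + s • w0) - (p0 + s • w0)‖ ≤ C * ‖Vv (p0 + s • w0)‖ := by
          intro s
          have := hC (fun t => Φ (t, p0 + s • w0))
            (fun t ht => hΦd _ t (hIoo t ht.1 (by linarith [ht.2])))
          simpa only [hΦ0] using this
        have h0 : Φ (T, p0) - p0 = 0 := by
          have := hb 0
          simp only [zero_smul, add_zero, Vv_eq_of_mem p0_mem, Xv_p0, norm_zero, mul_zero] at this
          exact norm_le_zero_iff.1 this
        simp only [zero_add, zero_smul, add_zero, h0, smul_zero, sub_zero]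
        have h1 : (fun s : ℝ => Φ (T, p0 + s • w0) - (p0 + s • w0)) =O[𝓝 0]
            (fun s : ℝ => Vv (p0 + s • w0)) := Asymptotics.IsBigO.of_bound C (.of_forall hb)
        refine h1.trans_isLittleO ?_
        have h2 : ∀ᶠ s : ℝ in 𝓝 0, ‖p0 + s • w0‖ < 2 := by
          refine hline.continuousAt.norm.eventually_lt continuousAt_const ?_
          simpa using (norm_le_of_mem p0 p0_mem).trans_lt (by norm_num)
        have h3 : (fun s : ℝ => Vv (p0 + s • w0)) =ᶠ[𝓝 0] fun s => s ^ 2 • (a + s • b) := by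
          filter_upwards [h2] with s hs
          rw [Vv_eq hs.le, hab]
        refine h3.trans_isLittleO ?_
        have h4 : (fun s : ℝ => a + s • b) =O[𝓝 0] (fun _ => (1 : ℝ)) :=
          (ContinuousAt.tendsto (by fun_prop)).isBigO_one ℝ
        have h5 : (fun s : ℝ => s ^ 2) =o[𝓝 0] (fun s => s) :=
          Asymptotics.isLittleO_pow_id (by norm_num)
        simpa using h5.smul_isBigO h4
      have hD2 : HasDerivAt (fun s : ℝ => Φ (T, p0 + s • w0)) w0 0 := by
        simpa using hD.fun_add hline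
      have hD3 := hasDerivAt_Gr (a := fun _ => -1) (b := fun _ => 0) (c := 0)
        (by simpa using hasDerivAt_const (0 : ℝ) (-1 : ℝ))
        (by simpa using hasDerivAt_const (0 : ℝ) (0 : ℝ)) hD2
      have hdiff : HasFDerivAt (fun x : E5 => Lf.Ψ (1, x))
          (fderiv ℝ (fun x : E5 => Lf.Ψ (1, x)) p0) (p0 + (0 : ℝ) • w0) := by
        rw [zero_smul, add_zero]
        exact
          (((Lf.smooth_Ψ.comp (contDiff_prodMk_right 1)).differentiable (by simp)) p0).hasFDerivAt
      have hD4 := hdiff.comp_hasDerivAt (0 : ℝ) hline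
      have e : ((fun x : E5 => Lf.Ψ (1, x)) ∘ fun s : ℝ => p0 + s • w0) =
          fun s : ℝ => Gr (-1) 0 (Φ (T, p0 + s • w0)) := funext fun s => hΨ1 _
      rw [e] at hD4
      rw [hD4.unique hD3, g_of_four (z := w0) (by simp [w0])]
      simp

end Crest.Agent.R205
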